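import Vale.Agent.P290.H518.CritIndep

/-! From K3 surfaces with twists and fibrations to the data of the abstract Oka criterion. -/

open Set Filter Metric
open scoped Manifold ContDiff Topology

namespace Vale.Agent.P290.H518

open Vale.Agent.P290

/-- The point `x` of the surface `X` corresponds, under a transfer of `X` into a surface `Y` along
maps to a Riemann surface, to a point of `Y` which a line flow of `Y` moves to a point at which it is
independent of another line flow. -/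
def CritPt (X : Type) [TopologicalSpace X] [ChartedSpace C2 X] (x : X) : Prop :=
  ∃ (Y : Type) (_ : TopologicalSpace Y) (_ : ChartedSpace C2 Y) (_ : T2Space Y)
    (_ : IsManifold 𝓘(ℂ, C2) 1 Y) (C : Type) (_ : TopologicalSpace C) (_ : ChartedSpace ℂ C)
    (π : X → C) (ρ : Y → C) (_ : MDifferentiable 𝓘(ℂ, C2) 𝓘(ℂ) π)
    (_ : MDifferentiable 𝓘(ℂ, C2) 𝓘(ℂ) ρ) (T : Transfer π ρ) (a : T.A) (s : ℂ)
    (L L' : LineFlow C2 Y) (b : L.A) (w : ℂ),
    π x ∈ T.O a ∧ T.ψ a x s ∈ L.U b ∧ L.φ b (T.ψ a x s) w ∈ IndepSet L L'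

/-- The data of the criterion at a point, from a twist of K3 surfaces and a second fibration. -/
theorem critPt_of_twist {X Y : All.K3} (T : All.Twist X Y) (a : T.A) {R : All.RS}
    (ρ' : Y.X → R.C) (hρ' : ∀ y, All.HolC ρ' y) (x : X.X) (hx : T.π x ∈ T.O a)
    (hcrit : ¬ All.Critical ρ' (T.h a x) ∨ ¬ All.Critical T.ρ (T.h a x))
    (hiso : ∃ U ∈ 𝓝 (T.h a x), ∀ y ∈ U, T.ρ y = T.ρ (T.h a x) → ρ' y = ρ' (T.h a x) →
      y = T.h a x) : CritPt X.X x := by
  have n1 : IsManifold 𝓘(ℂ, C2) ω X.X := X.manifold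
  have n2 : IsManifold 𝓘(ℂ, C2) 1 X.X := IsManifold.of_le (n := ω) le_top
  have n3 : T2Space X.X := X.t2
  have n4 : CompactSpace X.X := X.compact
  have m1 : IsManifold 𝓘(ℂ, C2) ω Y.X := Y.manifold
  have m2 : IsManifold 𝓘(ℂ, C2) 1 Y.X := IsManifold.of_le (n := ω) le_top
  have m3 : T2Space Y.X := Y.t2
  have m4 : CompactSpace Y.X := Y.compact
  have r1 : IsManifold 𝓘(ℂ) ω R.C := R.manifold
  have r2 : IsManifold 𝓘(ℂ) 1 R.C := IsManifold.of_le (n := ω) le_top
  have r3 : T2Space R.C := R.t2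
  have c1 : IsManifold 𝓘(ℂ) ω T.C.C := T.C.manifold
  have c2 : IsManifold 𝓘(ℂ) 1 T.C.C := IsManifold.of_le (n := ω) le_top
  have c3 : T2Space T.C.C := T.C.t2
  have hπ : MDifferentiable 𝓘(ℂ, C2) 𝓘(ℂ) T.π := fun x => (T.π_hol x).md
  have hρ : MDifferentiable 𝓘(ℂ, C2) 𝓘(ℂ) T.ρ := fun y => (T.ρ_hol y).md
  obtain ⟨S, hS⟩ := exists_transfer' (vol := X.volForm) hπ hρ
    { A := T.A
      O := T.O
      h := T.h
      g := T.g
      S := T.S
      isOpen := T.isOpen
      cover := T.cover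
      h_hol := fun a x hx => (T.h_hol a x hx).1.md
      g_hol := fun a y hy => (T.g_hol a y hy).1.md
      h_base := fun a x hx => (T.h_hol a x hx).2.1
      g_base := fun a y hy => (T.g_hol a y hy).2.1
      gh := fun a x hx => (T.h_hol a x hx).2.2
      hg := fun a y hy => (T.g_hol a y hy).2.2
      S_hol := fun a b p ha hb => by
        obtain ⟨u, v, hu, -, -⟩ := T.S_coc a b b p ha hb hb
        exact hu.md
      S_coc := fun a b c p ha hb hc => by
        obtain ⟨u, v, hu, hv, hw⟩ := T.S_coc a b c p ha hb hc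
        exact hw.dS.trans (congrArg₂ (· + ·) hu.dS.symm hv.dS.symm)
      trans := fun a b x ha hb => T.trans a b x ha hb }
  obtain ⟨b, hb, hby⟩ := hS a x hx
  set y := T.h a x with hy
  -- the two fibrations of `Y`
  let Cs : Bool → All.RS := fun j => cond j R T.C
  let πs : ∀ j, Y.X → (Cs j).C := fun j => match j with
    | true => ρ'
    | false => T.ρ
  have hCm : ∀ j, IsManifold 𝓘(ℂ) 1 (Cs j).C := by
    intro j
    cases j
    · exact c2
    · exact r2
  have hCt : ∀ j, T2Space (Cs j).C := by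
    intro j
    cases j
    · exact c3
    · exact r3
  have hπs : ∀ j, MDifferentiable 𝓘(ℂ, C2) 𝓘(ℂ) (πs j) := by
    intro j
    cases j
    · exact hρ
    · exact fun y => (hρ' y).md
  choose 𝓛 h𝓛 using fun j => exists_lineFlow Y.volForm (πs j) (hπs j)
  have hcr : ∃ j, mfderiv 𝓘(ℂ, C2) 𝓘(ℂ) (πs j) y ≠ 0 := by
    rcases hcrit with h | h
    · exact ⟨true, fun h0 => h (critical_of_mfderiv (hπs true) h0)⟩
    · exact ⟨false, fun h0 => h (critical_of_mfderiv (hπs false) h0)⟩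
  obtain ⟨i, j, a', w, ha', hw⟩ := exists_indep Y.volForm πs hπs 𝓛 h𝓛 y hcr (by
    obtain ⟨U, hU, h⟩ := hiso
    exact ⟨U, hU, fun y' hy' hj => h y' hy' (hj false) (hj true)⟩)
  refine ⟨Y.X, inferInstance, inferInstance, m3, m2, T.C.C, inferInstance, inferInstance, T.π, T.ρ,
    hπ, hρ, S, b, 0, 𝓛 i, 𝓛 j, a', w, hb, ?_, ?_⟩
  · rw [hby]; exact ha'
  · rw [hby]; exact hw

/-- The criterion, given the abstract core: if all points of a K3 surface `X` correspond, on suitable
twists of `X`, to points which are noncritical for one of two maps to Riemann surfaces and isolated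
in their joint fibre, then `X` is Oka. -/
theorem isOka_of_twists_of_core
    (core : ∀ (X : Type) [TopologicalSpace X] [ChartedSpace C2 X] [T2Space X]
      [IsManifold 𝓘(ℂ, C2) 1 X], VolForm X → (∀ x, CritPt X x) → HasFactor X)
    (X : All.K3) (h : ∀ x : X.X, ∃ (Y : All.K3) (T : All.Twist X Y) (a : T.A) (R : All.RS)
      (ρ' : Y.X → R.C), T.π x ∈ T.O a ∧ (∀ y, All.HolC ρ' y) ∧
      (¬ All.Critical ρ' (T.h a x) ∨ ¬ All.Critical T.ρ (T.h a x)) ∧
      ∃ U ∈ 𝓝 (T.h a x), ∀ y ∈ U, T.ρ y = T.ρ (T.h a x) → ρ' y = ρ' (T.h a x) → y = T.h a x) :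
    All.IsOka X.X := by
  have n1 : IsManifold 𝓘(ℂ, C2) ω X.X := X.manifold
  have n2 : IsManifold 𝓘(ℂ, C2) 1 X.X := IsManifold.of_le (n := ω) le_top
  have n3 : T2Space X.X := X.t2
  refine All.isOka_iff (core X.X X.volForm fun x => ?_).isOka
  obtain ⟨Y, T, a, R, ρ', h1, h2, h3, h4⟩ := h x
  exact critPt_of_twist T a ρ' h2 x h1 h3 h4

end Vale.Agent.P290.H518
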