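import Vale.Agent.P290.H518.CritTransfer

/-! From a noncritical point isolated in its joint fibre one flows to a point of independence. -/

open Set Filter Metric
open scoped Manifold ContDiff Topology

namespace Vale.Agent.P290.H518

open Vale.Agent.P290

/-- Let `π j` be maps from a compact surface to Riemann surfaces and let `𝓛 j` be their Hamiltonian
flows. If one of the maps is not critical at `x` and if `x` is isolated in its joint fibre, then one
of the flows moves `x` to a point at which it is independent of another flow. -/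
theorem exists_indep {X : Type} [TopologicalSpace X] [ChartedSpace C2 X] [T2Space X]
    [CompactSpace X] [IsManifold 𝓘(ℂ, C2) 1 X] (vol : VolForm X) {J : Type} {C : J → Type}
    [∀ j, TopologicalSpace (C j)] [∀ j, ChartedSpace ℂ (C j)]
    [∀ j, IsManifold 𝓘(ℂ) 1 (C j)] (π : ∀ j, X → C j)
    (hπ : ∀ j, MDifferentiable 𝓘(ℂ, C2) 𝓘(ℂ) (π j))
    (𝓛 : J → LineFlow C2 X) (h𝓛 : ∀ j x, ∃ a, x ∈ (𝓛 j).U a ∧ ∀ u : C2,
      vol.coef (chartAt C2 x) (chartAt C2 x x) * area (vel (𝓛 j) a x) u =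
        (mfderiv 𝓘(ℂ, C2) 𝓘(ℂ) (π j) x : C2 →L[ℂ] ℂ) u) (x : X)
    (hcrit : ∃ j, mfderiv 𝓘(ℂ, C2) 𝓘(ℂ) (π j) x ≠ 0)
    (hiso : ∃ U ∈ 𝓝 x, ∀ y ∈ U, (∀ j, π j y = π j x) → y = x) :
    ∃ (i j : J) (a : (𝓛 i).A) (w : ℂ), x ∈ (𝓛 i).U a ∧
      (𝓛 i).φ a x w ∈ IndepSet (𝓛 i) (𝓛 j) := by
  obtain ⟨i, hi⟩ := hcrit
  obtain ⟨a, ha, hfa⟩ := h𝓛 i x
  have hvel : vel (𝓛 i) a x ≠ 0 := by
    intro h0
    apply hi
    ext u
    have h1 := hfa u
    rw [h0] at h1
    have h2 : area (0 : C2) u = 0 := by simp [area]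
    rw [h2, mul_zero] at h1
    exact h1.symm
  by_contra hcon
  push Not at hcon
  set c : ℂ → X := fun w => (𝓛 i).φ a x w with hc
  have hcd : ∀ w, MDifferentiableAt 𝓘(ℂ) 𝓘(ℂ, C2) c w := fun w =>
    (𝓛 i).φ_hol a ℂ (fun _ => x) (fun s => s) w mdifferentiableAt_const differentiableAt_id ha
  have hconst : ∀ j w, π j (c w) = π j (c 0) := by
    intro j
    have hgd : MDifferentiable 𝓘(ℂ) 𝓘(ℂ) (fun w => π j (c w)) := fun w =>
      (hπ j (c w)).comp w (hcd w)
    refine const_of_deriv_zero hgd fun w => ?_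
    have hy : c w ∈ (𝓛 i).U a := (𝓛 i).φ_mem _ _ _ ha
    obtain ⟨b, hb, hfb⟩ := h𝓛 j (c w)
    have h1 : area (vel (𝓛 j) b (c w)) (vel (𝓛 i) a (c w)) = 0 := by
      by_contra h
      refine hcon i j a w ha ⟨a, b, hy, hb, ?_⟩
      intro h0
      apply h
      have : area (vel (𝓛 j) b (c w)) (vel (𝓛 i) a (c w)) =
          - area (vel (𝓛 i) a (c w)) (vel (𝓛 j) b (c w)) := by simp only [area]; ring
      rw [this, h0, neg_zero]
    have h2 := hfb (vel (𝓛 i) a (c w))
    rw [h1, mul_zero] at h2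
    -- the derivative of the orbit
    obtain ⟨M, hM⟩ : ∃ M : ℂ →L[ℂ] C2, M = mfderiv 𝓘(ℂ) 𝓘(ℂ, C2) c w := ⟨_, rfl⟩
    have h3 : M 1 = vel (𝓛 i) a (c w) := by
      have k1 : M = fderiv ℂ (fun s => chartAt C2 (c w) (c s)) w := by
        rw [hM, (hcd w).mfderiv]
        simp only [writtenInExtChartAt, extChartAt, OpenPartialHomeomorph.extend, modelWithCornersSelf_partialEquiv, PartialEquiv.trans_refl, OpenPartialHomeomorph.toFun_eq_coe, OpenPartialHomeomorph.coe_toPartialEquiv_symm, modelWithCornersSelf_coe, range_id, fderivWithin_univ]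
        rfl
      have k2 : (fun s : ℂ => chartAt C2 (c w) ((𝓛 i).φ a (c w) s)) =
          fun s => (fun s => chartAt C2 (c w) (c s)) (w + s) := by
        funext s
        simp only [hc]
        rw [(𝓛 i).φ_add _ _ _ _ ha]
      have k3 : vel (𝓛 i) a (c w) = deriv (fun s => chartAt C2 (c w) (c s)) w := by
        unfold vel
        rw [k2]
        have := deriv_comp_const_add (fun s => chartAt C2 (c w) (c s)) w 0
        rw [add_zero] at this
        exact this
      rw [k3, k1]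
      rfl
    obtain ⟨N, hN⟩ : ∃ N : C2 →L[ℂ] ℂ, N = mfderiv 𝓘(ℂ, C2) 𝓘(ℂ) (π j) (c w) := ⟨_, rfl⟩
    have h2' : N (vel (𝓛 i) a (c w)) = 0 := by rw [hN]; exact h2.symm
    have h6 : ∀ s : ℂ, N (M s) = 0 := by
      intro s
      have h7 : M s = s • M 1 := by
        rw [← map_smul]; simp
      rw [h7, map_smul, h3, h2', smul_zero]
    have h4 := mfderiv_comp w (hπ j (c w)) (hcd w)
    refine h4.trans ?_
    rw [← hM, ← hN]
    exact ContinuousLinearMap.ext h6
  have h0 : c 0 = x := (𝓛 i).φ_zero _ _ ha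
  obtain ⟨U, hU, hUx⟩ := hiso
  have hcc : Continuous c := continuous_iff_continuousAt.2 fun w => (hcd w).continuousAt
  have hcst : ∀ᶠ w in 𝓝 (0 : ℂ), c w = x := by
    have h1 : ∀ᶠ w in 𝓝 (0 : ℂ), c w ∈ U := hcc.continuousAt.eventually (by rw [h0]; exact hU)
    filter_upwards [h1] with w hw
    exact hUx _ hw fun j => by rw [hconst j w, h0]
  apply hvel
  unfold vel
  have h1 : (fun w : ℂ => chartAt C2 x ((𝓛 i).φ a x w)) =ᶠ[𝓝 0] fun _ => chartAt C2 x x := by
    filter_upwards [hcst] with w hw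
    change chartAt C2 x (c w) = _
    rw [hw]
  rw [h1.deriv_eq]
  simp

/-- finite sets of a Hausdorff space consist of isolated points -/
theorem iso_of_finite {X : Type} [TopologicalSpace X] [T1Space X] {P : X → Prop} {x : X}
    (h : {y | P y}.Finite) : ∃ U ∈ 𝓝 x, ∀ y ∈ U, P y → y = x := by
  refine ⟨({y | P y} \ {x})ᶜ, ?_, fun y hy hP => ?_⟩
  · exact ((h.subset sdiff_subset).isClosed).isOpen_compl.mem_nhds (by simp)
  · by_contra hne
    exact hy ⟨hP, hne⟩

end Vale.Agent.P290.H518
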