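import Vale.Agent.P290.H270.Pencil
import Mathlib.Analysis.Complex.Basic

/-! # P290, package ELLLAT (first half): from a class with the INDEX property to a base point free
pencil on the twist `X_b`, `b = - σ v / m` -/

namespace Vale.Agent.P290.H518

open P290.H270

universe u v w

variable {H : Type u} [AddCommGroup H] [IsAddTorsionFree H]

/-- Let `K` be the curves of the twist `X_b` (classes `h` with `σ h + b (h.e) = 0`), with the
fibration `f`. Let `v` be a class with `v² = 0`, `v.e = m ≥ 2`, nonnegative on the fibre components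
(of class `e` or `Θ i`), with `b = - σ v / m` and with the INDEX property. Then two different
effective divisors of class `v` on `X_b` are disjoint. -/
theorem pencil_of_index (σ : H →+ ℂ) (b : ℂ) (K : Curves.{u, v} H) (f : Fib.{u, v, w} K)
    [Nonempty f.S] (hc : f.Conn) {c0 : H} (hc0 : K.B c0 f.e = 1)
    (hNS : ∀ C, σ (K.cl C) + b * (K.B (K.cl C) f.e : ℤ) = 0)
    (hself : ∀ C, -2 ≤ K.B (K.cl C) (K.cl C))
    {ι : Type*} (Θ : ι → H)
    (hvert : ∀ C, K.B f.e (K.cl C) = 0 → K.cl C = f.e ∨ ∃ i, K.cl C = Θ i)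
    {v : H} {m : ℤ} (hm : 2 ≤ m) (hvv : K.B v v = 0) (hve : K.B v f.e = m)
    (hΘ : ∀ i, 0 ≤ K.B v (Θ i)) (hb : σ v + b * (m : ℂ) = 0)
    (index : ∀ h : H, (m : ℂ) * σ h = σ v * (K.B h f.e : ℤ) → m ∣ K.B h f.e)
    {D₁ D₂ : K.κ →₀ ℕ} (hne : D₁ ≠ D₂) (h1 : K.cls D₁ = v) (h2 : K.cls D₂ = v) :
    ∀ C ∈ D₁.support, ∀ C' ∈ D₂.support, C ≠ C' ∧ K.B (K.cl C) (K.cl C') = 0 := by
  refine f.pencil hc hc0 hm (fun C => ?_) hself hvv hve (fun C hC => ?_) hne h1 h2
  · rw [K.symm]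
    refine index _ ?_
    have e1 : σ (K.cl C) = - (b * (K.B (K.cl C) f.e : ℤ)) := eq_neg_of_add_eq_zero_left (hNS C)
    have e2 : σ v = - (b * (m : ℂ)) := eq_neg_of_add_eq_zero_left hb
    rw [e1, e2]
    ring
  · rcases hvert C hC with h | ⟨i, h⟩
    · rw [h, hve]; omega
    · rw [h]; exact hΘ i

end Vale.Agent.P290.H518
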